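import Vale.Agent.P066.Col
import Vale.Agent.P066.Extract
import Vale.Agent.P066.Uniq

namespace Vale.Agent.Results.P066.KFourFree

open Finset Polynomial Vale.Agent.P066

/-- The natural unit interval graph of `h`: `a` and `b` with `a < b` are adjacent iff `b ≤ h a`. -/
def unitIntervalGraph {n : ℕ} (h : Fin n → Fin n) : SimpleGraph (Fin n) where
  Adj a b := (a < b ∧ b ≤ h a) ∨ (b < a ∧ a ≤ h b)
  symm := ⟨fun _ _ hab => hab.symm⟩
  loopless := ⟨fun a hab => by
    rcases hab with hab | hab <;> exact lt_irrefl _ hab.1⟩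

open Classical in
/-- The number of ascents of a colouring: edges `a < b` with `f a < f b`. -/
noncomputable def asc {n N : ℕ} (G : SimpleGraph (Fin n)) (f : Fin n → Fin N) : ℕ :=
  ((Finset.univ : Finset (Fin n × Fin n)).filter
    (fun p => p.1 < p.2 ∧ G.Adj p.1 p.2 ∧ f p.1 < f p.2)).card

open Classical in
/-- The chromatic quasisymmetric function in `N` variables, with `q = X` in `ℤ[X]`. -/
noncomputable def chromQ {n : ℕ} (G : SimpleGraph (Fin n)) (N : ℕ) :
    MvPolynomial (Fin N) ℤ[X] :=
  ∑ f ∈ (Finset.univ : Finset (Fin n → Fin N)).filter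
    (fun f => ∀ a b, G.Adj a b → f a ≠ f b),
    MvPolynomial.C (X ^ asc G f) * ∏ a, MvPolynomial.X (f a)

/-- `c` is the family of coefficients of the elementary expansion of the chromatic
quasisymmetric function of `G` (in every number of variables). -/
def IsElemExpansion {n : ℕ} (G : SimpleGraph (Fin n)) (c : n.Partition → ℤ[X]) : Prop :=
  ∀ N : ℕ, chromQ G N = ∑ μ : n.Partition,
    MvPolynomial.C (c μ) * MvPolynomial.esymmPart (Fin N) ℤ[X] μ

/-- extension of `h` to all natural numbers -/
def extH {n : ℕ} (h : Fin n → Fin n) (i : ℕ) : ℕ := if hi : i < n then (h ⟨i, hi⟩ : ℕ) else i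

lemma extH_mono {n : ℕ} (h : Fin n → Fin n) (hmono : Monotone h) : Monotone (extH h) := by
  intro i j hij
  unfold extH
  by_cases hj : j < n
  · rw [dif_pos hj, dif_pos (by omega)]
    exact hmono (by simpa using hij)
  · rw [dif_neg hj]
    by_cases hi : i < n
    · rw [dif_pos hi]
      have := (h ⟨i, hi⟩).2
      omega
    · rw [dif_neg hi]; exact hij

lemma W_eq {n : ℕ} (h : Fin n → Fin n) (N : ℕ) (f : Fin n → Fin N) :
    W N (extH h) n f = (∏ a, MvPolynomial.X (f a)) * ∏ p : Fin n × Fin n,
      if p.1 < p.2 ∧ p.2 ≤ h p.1 then wt (qN N) 1 (f p.1 : ℕ) (f p.2 : ℕ) else 1 := by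
  unfold W
  rw [Finset.prod_mul_distrib]
  congr 1
  · apply Finset.prod_congr rfl
    intro a _
    unfold xN
    rw [dif_pos (f a).2]
  · rw [Fintype.prod_prod_type_right]
    apply Finset.prod_congr rfl
    intro b _
    apply Finset.prod_congr rfl
    intro a _
    have : ((b : ℕ) ≤ extH h a) ↔ (b ≤ h a) := by
      unfold extH
      rw [dif_pos a.2]
      exact Iff.rfl
    simp only [this]

lemma chromQ_eq {n : ℕ} (h : Fin n → Fin n) (N : ℕ) :
    chromQ (unitIntervalGraph h) N = Z0 (extH h) n N := by
  classical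
  unfold chromQ Z0
  rw [Finset.sum_filter]
  apply Finset.sum_congr rfl
  intro f _
  rw [W_eq]
  split_ifs with hf
  · rw [mul_comm]
    congr 1
    have h1 : ∀ p : Fin n × Fin n,
        (if p.1 < p.2 ∧ p.2 ≤ h p.1 then wt (qN N) 1 (f p.1 : ℕ) (f p.2 : ℕ) else 1)
        = if p.1 < p.2 ∧ (unitIntervalGraph h).Adj p.1 p.2 ∧ f p.1 < f p.2 then qN N else 1 := by
      intro p
      by_cases h1 : p.1 < p.2 ∧ p.2 ≤ h p.1
      · have hadj : (unitIntervalGraph h).Adj p.1 p.2 := Or.inl h1
        have hne := hf _ _ hadj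
        have hne' : (f p.1 : ℕ) ≠ (f p.2 : ℕ) := fun h' => hne (Fin.ext h')
        rw [if_pos h1]
        unfold wt
        rw [if_neg hne']
        by_cases h2 : f p.1 < f p.2
        · rw [if_pos (show (f p.1 : ℕ) < (f p.2 : ℕ) from h2), if_pos ⟨h1.1, hadj, h2⟩]
        · rw [if_neg (show ¬ (f p.1 : ℕ) < (f p.2 : ℕ) from h2), if_neg (fun h' => h2 h'.2.2)]
      · rw [if_neg h1, if_neg]
        rintro ⟨h2, h3, _⟩
        apply h1
        rcases h3 with h3 | h3
        · exact h3
        · exact absurd h3.1 (not_lt.2 h2.le)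
    simp only [h1]
    rw [Finset.prod_ite, Finset.prod_const_one, mul_one, Finset.prod_const]
    unfold asc qN
    rw [map_pow]
  · push Not at hf
    obtain ⟨a, b, hab, hfab⟩ := hf
    symm
    rcases hab with hab | hab
    · rw [Finset.prod_eq_zero (Finset.mem_univ ((a, b) : Fin n × Fin n)), mul_zero]
      simp only [hab, and_self, if_true, wt, hfab]
    · rw [Finset.prod_eq_zero (Finset.mem_univ ((b, a) : Fin n × Fin n)), mul_zero]
      simp only [hab, and_self, if_true, wt, hfab]

lemma clique_of_le {n : ℕ} (h : Fin n → Fin n) (hmono : Monotone h) (i : Fin n)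
    (hi : (i : ℕ) + 3 ≤ h i) : ¬ (unitIntervalGraph h).CliqueFree 4 := by
  classical
  intro hfree
  have hn := (h i).2
  let g : Fin 4 → Fin n := fun k => ⟨i + k, by omega⟩
  have hg : Function.Injective g := by
    intro a b hab
    simp only [g, Fin.mk.injEq] at hab
    ext; omega
  apply hfree (Finset.univ.map ⟨g, hg⟩)
  constructor
  · intro a ha b hb hab
    simp only [Finset.coe_map, Function.Embedding.coeFn_mk, Finset.coe_univ, Set.image_univ,
      Set.mem_range] at ha hb
    obtain ⟨k, rfl⟩ := ha
    obtain ⟨l, rfl⟩ := hb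
    have key : ∀ k l : Fin 4, g k < g l → g l ≤ h (g k) := by
      intro k l _
      have h1 : h i ≤ h (g k) := hmono (by
        show (i : ℕ) ≤ i + k
        omega)
      have h2 : g l ≤ h i := by
        show (i : ℕ) + l ≤ h i
        omega
      exact h2.trans h1
    rcases lt_or_gt_of_ne hab with h1 | h1
    · exact Or.inl ⟨h1, key k l h1⟩
    · exact Or.inr ⟨h1, key l k h1⟩
  · simp

lemma chromQ_homog {n : ℕ} (G : SimpleGraph (Fin n)) (N : ℕ) :
    (chromQ G N).IsHomogeneous n := by
  unfold chromQ
  apply MvPolynomial.IsHomogeneous.sum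
  intro f _
  have h1 : (∏ a, (MvPolynomial.X (f a) : MvPolynomial (Fin N) ℤ[X])).IsHomogeneous n := by
    have := MvPolynomial.IsHomogeneous.prod (Finset.univ : Finset (Fin n))
      (fun a => (MvPolynomial.X (f a) : MvPolynomial (Fin N) ℤ[X])) (fun _ => 1)
      (fun a _ => MvPolynomial.isHomogeneous_X _ _)
    simpa using this
  have h2 := (MvPolynomial.isHomogeneous_C (Fin N) ((X : ℤ[X]) ^ asc G f)).mul h1
  simpa using h2

lemma expansion_unique {n : ℕ} (G : SimpleGraph (Fin n)) (c c' : n.Partition → ℤ[X])
    (h : IsElemExpansion G c) (h' : IsElemExpansion G c') : c = c' := by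
  funext μ
  have h1 : ∑ μ : n.Partition, MvPolynomial.C ((c - c') μ)
      * MvPolynomial.esymmPart (Fin n) ℤ[X] μ = 0 := by
    simp only [Pi.sub_apply, map_sub, sub_mul, Finset.sum_sub_distrib]
    rw [← h n, ← h' n, sub_self]
  have := uniq n n (c - c') h1 μ (fun i hi => Nat.Partition.le_of_mem_parts hi)
  exact sub_eq_zero.1 this

/-- **Elementary positivity for all `K_4`-free natural unit interval graphs, and for all
natural unit interval graphs and all partitions with parts at most three.** -/
theorem result (n : ℕ) (h : Fin n → Fin n) (hmono : Monotone h) :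
    ((unitIntervalGraph h).CliqueFree 4 →
      ∃ c : n.Partition → ℤ[X], IsElemExpansion (unitIntervalGraph h) c ∧
        (∀ c', IsElemExpansion (unitIntervalGraph h) c' → c' = c) ∧
        ∀ μ k, 0 ≤ (c μ).coeff k) ∧
    (∀ c : n.Partition → ℤ[X], IsElemExpansion (unitIntervalGraph h) c →
      ∀ μ : n.Partition, (∀ i ∈ μ.parts, i ≤ 3) → ∀ k, 0 ≤ (c μ).coeff k) := by
  classical
  have main : (∀ i, (h i : ℕ) ≤ i + 2) → ∃ c : n.Partition → ℤ[X],
      IsElemExpansion (unitIntervalGraph h) c ∧
        (∀ c', IsElemExpansion (unitIntervalGraph h) c' → c' = c) ∧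
        ∀ μ k, 0 ≤ (c μ).coeff k := by
    intro h3
    have h3' : ∀ i, extH h i ≤ i + 2 := by
      intro i
      unfold extH
      split_ifs with hi
      · exact h3 ⟨i, hi⟩
      · omega
    have hE := (main_induction (extH h) (extH_mono h hmono) h3' n).1
    obtain ⟨c, hc, hc'⟩ := extract _ hE n
    have hexp : IsElemExpansion (unitIntervalGraph h) c := by
      intro N
      rw [← hc' N, ← chromQ_eq]
      exact ((MvPolynomial.homogeneousComponent_of_mem (chromQ_homog _ N)).trans
        (if_pos rfl)).symm
    exact ⟨c, hexp, fun c' hc' => expansion_unique _ _ _ hc' hexp, hc⟩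
  have imp : (∀ i, (h i : ℕ) ≤ i + 2) ∨ ∃ i : Fin n, (i : ℕ) + 3 ≤ h i := by
    by_cases hh : ∀ i, (h i : ℕ) ≤ i + 2
    · exact Or.inl hh
    · push Not at hh
      obtain ⟨i, hi⟩ := hh
      exact Or.inr ⟨i, hi⟩
  refine ⟨fun hfree => ?_, fun c hc μ hμ k => ?_⟩
  · rcases imp with h1 | ⟨i, hi⟩
    · exact main h1
    · exact absurd hfree (clique_of_le h hmono i hi)
  · rcases imp with h1 | ⟨i, hi⟩
    · obtain ⟨d, _, hd', hpos⟩ := main h1
      rw [hd' c hc]
      exact hpos μ k
    · have hz : chromQ (unitIntervalGraph h) 3 = 0 := by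
        unfold chromQ
        rw [Finset.filter_eq_empty_iff.2, Finset.sum_empty]
        intro f _ hf
        have hn := (h i).2
        let g : Fin 4 → Fin n := fun k => ⟨i + k, by omega⟩
        have hg : Function.Injective (fun k => f (g k)) := by
          intro a b hab
          by_contra hne
          have key : ∀ k l : Fin 4, k < l → f (g k) ≠ f (g l) := by
            intro k l hkl
            apply hf
            left
            refine ⟨?_, ?_⟩
            · show (i : ℕ) + k < i + l
              have : (k : ℕ) < l := hkl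
              omega
            · have h1 : h i ≤ h (g k) := hmono (by
                show (i : ℕ) ≤ i + k
                omega)
              have h2 : g l ≤ h i := by
                show (i : ℕ) + l ≤ h i
                omega
              exact h2.trans h1
          rcases lt_or_gt_of_ne hne with h1 | h1
          · exact key a b h1 hab
          · exact key b a h1 hab.symm
        have := Fintype.card_le_of_injective _ hg
        simp at this
      have h0 := hc 3
      rw [hz] at h0
      rw [uniq 3 n c h0.symm μ hμ]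
      simp

end Vale.Agent.Results.P066.KFourFree
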